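import Vale.Agent.P154.D2.K0.Data
import Vale.Agent.P154.Check2

namespace Vale.Agent.P154.D2.K0

open Cert

/-- Chart (0, 0). -/
def P00 : Pb := chartPb false false Nd w G []

/-- Chart (0, 1). -/
def P01 : Pb := chartPb false true Nd w G []

/-- Chart (1, 0). -/
def P10 : Pb := chartPb true false Nd w G []

/-- Chart (1, 1). -/
def P11 : Pb := chartPb true true Nd w G []

/-- The offset. -/
def KK : ℕ := 393200561216504527045741812498745334349794626358055807073429169358925819282450488820372784813747007678293208700864614881252884194011849774670631492504251652546842505006885206512154396727368793970069565847786941153205936533145820397028007058524233450167655142491564303084828955077427623974694326744926627349676435357548135321931502953635294015169876311824279749521266750751485803723292857237674944627929513984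

end Vale.Agent.P154.D2.K0
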