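import Vale.Agent.P154.D2.K0.Charts

set_option maxRecDepth 100000

namespace Vale.Agent.P154.D2.K0

open Cert InT OutT

/-- Certificate tree. -/
def tr00_r1001 : OutT :=
(B (A s s) (A (B (A (B (A s s) (A (B (A (O (c (c (c l l) (c l l)) (c (d (c l (d (c k k) (d (c l k) l))) (c l (d l l))) (c (d k (d (c (d k l) (d k l)) (c l l))) (d k (c (d k (c l l)) (d k (d (c k k) l)))))))) s) (A (O (c (c (c l l) (c l l)) (c (d (c l (d (c k k) (d l l))) (c l (d l l))) (c (d k (d (c (c l k) (d k l)) (c l l))) (d k (c (d k (c l l)) (d k (d (c k k) l)))))))) s)) s)) s) (A (B (A (B (A (O (c (c (c l l) (c l l)) (c (d (c l (d (d k l) (c l l))) (c l (c l l))) (c (d k (d (c l (d k l)) (c l l))) (d k (c (d k (c l l)) (d k (d (c k k) l)))))))) (O (c (c (c l l) (c l l)) (c (c (d l l) (d (d (d k (c k k)) (c l l)) (d l l))) (c (d k (d (c (c l k) (d k l)) (c l l))) (d k (c (d k (c l l)) (d k (d (c k k) (c l l)))))))))) (A (O (c (c (c l l) (c l l)) (c (c (d l l) (d (d (c k k) l)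 (c l l))) (c (d k (d (c l (d k l)) (c l l))) (d k (c (d k (c l l)) (d k (d (c k k) l)))))))) (O (c (c (c l l) (c l l)) (c (c (d l l) (d (d (d k l) l) (c l l))) (c (d k (d (c l (d k l)) (c l l))) (d k (c (d k (c l l)) (d k (d (c k k) (c l l))))))))))) (B s (A (O (c (c (c l l) (c l l)) (c (c (d l l) (d (d (d k (c k k)) (c l l)) (c l l))) (c (d k (d (c (c l k) (d k l)) (c l l))) (d k (c (d k (d l l)) (d k (d (c k k) (c l l))))))))) s))) (A (B (A (O (c (c (c l l) (c l l)) (c (c (d l l) (d (d l l) (c l l))) (c (d k (d (c l (d k l)) (c l l))) (d k (c (d k (c l l)) (d k (d (c k k) (c l l))))))))) (O (c (c (c l l) (c l l)) (c (c (d l l) (d (d l l) (c l l))) (c (d k (d (c l (d k l)) (c l l))) (d k (c (d k (c l l)) (d k (d (c k k) (c l l)))))))))) (A (O (c (c (c (c l l) l) (c l l)) (c (c (c l l) (d (d l l) (c l l))) (c (d k (d (c l (d k l)) (c l l))) (d k (c (d k (c l l)) (d k (d (c k k) (c l l))))))))) (O (c (c (c (c l l) l) (c l l)) (c (c (c l l) (d (d l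 l) (c l l))) (c (d k (d (c l (d k l)) (c l l))) (d k (c (d k (c l l)) (d k (d (c k k) (c l l))))))))))) (B (A (O (c (c (c l l) (c l l)) (c (c (d l l) (d (d (c k k) l) (c l l))) (c (d k (d (c l (d k l)) (c l l))) (d k (c (d k (d l l)) (d k (d (c k k) (c l l))))))))) (O (c (c (c l l) (c l l)) (c (c (d l l) (d (d (d k l) l) (c l l))) (c (d k (d (c l (d k l)) (c l l))) (d k (c (d k (d l l)) (d k (d (c k k) (c l l)))))))))) (A (O (c (c (c l l) (c l l)) (c (c (c l l) (d (d l l) (c l l))) (c (d k (d (c l (d k l)) (c l l))) (d k (c (d k (d l l)) (d k (d (c k k) (c l l))))))))) (O (c (c (c l l) (c l l)) (c (c (d l l) (d (d l l) (c l l))) (c (d k (c (d l l) (d (d k l) l))) (d k (c (d k (d l l)) (d k (d (c k k) (c l l))))))))))))) (B s (A (B s (A (O (c (c (c l l) (c l l)) (c (c (d l l) (d (d (c k k) l) (c l l))) (c (d k (c (d l l) (d (d k l) l))) (d k (c (d k (d (c l k) l)) (d k (d (c k k) (c l l))))))))) s)) s)))) (B s (A s s))))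

theorem s00_r1001 : Sound P00 40960 4096 0 16384 :=
  chkOut2_sound P00 KK tr00_r1001 40960 4096 0 16384 (by decide +kernel)

end Vale.Agent.P154.D2.K0
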