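import Vale.Agent.P154.D2.K0.Charts

set_option maxRecDepth 100000

namespace Vale.Agent.P154.D2.K0

open Cert InT OutT

/-- Certificate tree. -/
def tr00_r1011010 : OutT :=
(A (B s (A (B s (A (O (c (c (c l l) (c l l)) (c (c (c l l) (d (d l l) (c l l))) (c (d k (c (d l l) (d (d k (c k k)) (c l l)))) (d k (c (d k (d (c l k) (c l l))) (d k (c (d k (c l l)) (d k (d (c k k) (c l (c l l)))))))))))) s)) s)) s)

theorem s00_r1011010 : Sound P00 45056 2048 32768 4096 :=
  chkOut2_sound P00 KK tr00_r1011010 45056 2048 32768 4096 (by decide +kernel)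

end Vale.Agent.P154.D2.K0
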