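import Vale.Agent.P154.D2.K0.Charts

set_option maxRecDepth 100000

namespace Vale.Agent.P154.D2.K0

open Cert InT OutT

/-- Certificate tree. -/
def tr00_r10111010 : OutT :=
(B (A (B (A (O (c (c (c l l) l) (c (c l (d l l)) (c (d k (c (c l l) (d (c k k) l))) (d k (c (d k (d l l)) (d k (c (d k l) (d k l))))))))) (O (c (c (c l l) l) (c (c l (d l l)) (c (d k (c (c l l) (d (c k k) l))) (d k (c (d k (d l l)) (d k (c (d k l) (d k l)))))))))) (A (O (c (c (c l l) l) (c (c l (d l l)) (c (d k (c (c l l) (d (c k k) l))) (d k (c (d k (d l l)) (d k (c (d k l) (d k l))))))))) (O (c (c (c l l) l) (c (c l (d l l)) (c (d k (c (c l l) (d (c k k) l))) (d k (c (d k (d (c l k) l)) (d k (c (d k l) (d k (c l l)))))))))))) (B (A (O (c (c (c l l) l) (c (c l (d l l)) (c (d k (c (c l l) (d (c k k) l))) (d k (c (d k (d (c l k) l)) (d k (c (d k l) (d k (c l l)))))))))) (O (c (c (c l l) l) (c (c l (d l l)) (c (d k (c (c l l) (d (c k k) l))) (d k (c (d k (d (c l k) (c l l))) (d k (c (d k l)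 (d k (d l l))))))))))) (A (O (c (c (c l l) l) (c (c l (d l l)) (c (d k (c (c l l) (d (c k k) l))) (d k (c (d k (d (c l k) l)) (d k (c (d k l) (d k (c l l)))))))))) (O (c (c l l) (c (c l (d l l)) (c (d k (c (c l l) (d (c k k) l))) (d k (c (d k (d (c l k) (c l l))) (d k (c (d k l) (d k (d (c k k) l))))))))))))) (A (B (A (O (c (c (c l l) l) (c (c l (d l l)) (c (d k (c (c l l) (d (c k k) l))) (d k (c (d k (d l l)) (d k (c (d k l) (d k l))))))))) (O (c (c (c l l) l) (c (c l (d l l)) (c (d k (c (c l l) (d (c k k) l))) (d k (c (d k (d (c l k) l)) (d k (c (d k l) (d k (c l l))))))))))) (A (O (c (c (c l l) l) (c (c l (d l l)) (c (d k (c (c l l) (d l l))) (d k (c (d k (d l l)) (d k (c (d k l) (d k (c l l)))))))))) (O (c (c l l) (c (c l (d l l)) (c (d k (c (c l l) (d (c k k) l))) (d k (c (d k (d (c l k) l)) (d k (c (d k l) (d k (c l l)))))))))))) (B (A (O (c (c l l) (c (c l (d l l)) (c (d k (c (c l l) (d (c k k) l))) (d k (c (d k (d (c l k) (c l l))) (d k (c (d k l) (d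 k (c l l)))))))))) (O (c (c l l) (c (c l (d l l)) (c (d k (c (c l l) (d (c k k) l))) (d k (c (d k (c l (d k l))) (d k (c (d k l) (d k (d (c k k) l))))))))))) (A (O (c (c l l) (c (c l (d l l)) (c (d k (c (c l l) (d (c k k) l))) (d k (c (d k (d (c l k) (c l l))) (d k (c (d k l) (d k (d l l)))))))))) (O (c (c l l) (c (c l (d l l)) (c (d k (c (c l l) (d (c k k) l))) (d k (c (d k (c l (d k l))) (d k (c (d k l) (d k (d (c k k) (c l l)))))))))))))))

theorem s00_r10111010 : Sound P00 40960 1024 57344 4096 :=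
  chkOut2_sound P00 KK tr00_r10111010 40960 1024 57344 4096 (by decide +kernel)

end Vale.Agent.P154.D2.K0
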