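import Vale.Agent.P154.D2.K0.Charts

set_option maxRecDepth 100000

namespace Vale.Agent.P154.D2.K0

open Cert InT OutT

/-- Certificate tree. -/
def tr00_r111011101011 : OutT :=
(B (A (B (A (O (c (c l l) (c (c l (c l l)) (c (c (d k l) (d k (d l l))) (c (d k (d k (c l (c l l)))) (d k (d k (c (d k l) (d k (c l l)))))))))) (O (c (c l l) (c (c l (c l l)) (c (c (d k l) (d k (d l l))) (c (d k (d k (c l (c l l)))) (d k (d k (c (d k l) (d k (c l l))))))))))) (A (O (c (c l l) (c (c l (c l l)) (c (d k (c l (d l (c l l)))) (c (d k (d k (c l (c l l)))) (d k (d k (c (d k l) (d k (c l l)))))))))) (O (c (c l l) (c (c l (c l l)) (c (c (d k l) (d k (d l (c l l)))) (c (d k (d k (c l (c l l)))) (d k (d k (c (d k l) (d k (c l l)))))))))))) (B (A (O (c (c l l) (c (c l (c l l)) (c (c (d k l) (d k (d l (c l l)))) (c (d k (d k (c l (c l l)))) (d k (d k (c (d k l) (d k (c l l)))))))))) (O (c (c l l) (c (c l (c l l)) (c (c (d k l) (d k (d l (c l l)))) (c (d k (d k (c l (c l l)))) (d k (d k (c (d k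 l) (d k (c l l))))))))))) (A (O (c l (c (c l (c l l)) (c (c (d k l) (d k (d l (c l l)))) (c (d k (d k (c l (c l l)))) (d k (d k (c (d k l) (d k (c l l)))))))))) (O (c l (c (c l (c l l)) (c (c (d k l) (d k (d l (c l l)))) (c (d k (d k (c l (c l l)))) (d k (d k (c (d k l) (d k (c l l))))))))))))) (A (B (A (O (c (c l l) (c (c l (c l l)) (c (d k (c l (d l (c l l)))) (d k (c (d k (c l (c l l))) (d k (c (d k l) (d k (c l l)))))))))) (O (c l (c (c l (c l l)) (c (d k (c l (d l (c l l)))) (d k (c (d k (c l (c l l))) (d k (c (d k l) (d k (c l l))))))))))) (A (O (c l (c (c l (c l l)) (c (d k (c l (d l (c l l)))) (d k (c (d k (c l (c l l))) (d k (c (d k l) (d k (c l l)))))))))) (O (c l (c (c l (c l l)) (c (d k (c l (d l (c l l)))) (d k (c (d k (c l (c l l))) (d k (c (d k l) (d k (c l l)))))))))))) (B (A (O (c l (c (c l (c l l)) (c (d k (c l (d l (c l l)))) (d k (c (d k (c l (c l l))) (d k (c (d k l) (d k (c l l)))))))))) (O (c l (c (c l (c l l)) (c (c (d k l) (d k (d l (c l l)))) (d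 k (c (d k (c l (c l l))) (d k (c (d k l) (d k (c l l))))))))))) (A (O (c l (c (c l (c l l)) (c (d k (c l (d l (c l l)))) (d k (c (d k (c l (c l l))) (d k (c (d k l) (d k (c l l)))))))))) (O (c l (c (c l (c l l)) (c (d k (c l (d l (c l l)))) (d k (c (d k (c l (c l l))) (d k (c (d k l) (d k (c l l))))))))))))))

theorem s00_r111011101011 : Sound P00 53760 256 63488 1024 :=
  chkOut2_sound P00 KK tr00_r111011101011 53760 256 63488 1024 (by decide +kernel)

end Vale.Agent.P154.D2.K0
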