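import Vale.Agent.P154.D2.K0.Charts

set_option maxRecDepth 100000

namespace Vale.Agent.P154.D2.K0

open Cert InT OutT

/-- Certificate tree. -/
def tr00_r1111111111 : OutT :=
(B (A s s) (A (B (A s s) (A (B (A s s) (A (B (A s s) (A (O (c l (c (c l l) (c (c (c l l) (d k (c l l))) (c (d k (c (d k l) (d k l))) (d k (c (d k (c l l)) (d k (d k (c l l)))))))))) (O (c l (c (c l l) (c (c (c l l) (d k (c l l))) (c (d k (c (d k l) (d k l))) (d k (c (d k (c l l)) (d k (d k (c l l)))))))))))) (B (A s s) (A (O (c l (c (c l l) (c (c (c l l) (d k (c l l))) (c (d k (c (d k l) (d k l))) (d k (c (d k (c l l)) (d k (d k (c l l)))))))))) (O (c l (c (c l l) (c (c (c l l) (d k (c l l))) (c (d k (c (c l l) (d k l))) (d k (c (d k (c l l)) (d k (d k (c l l)))))))))))))) (B (A s s) (A (B (A s s) (A (O (c l (c (c l l) (c (c (c l l) (d k (c l l))) (c (d k (c (c l l) (d k l))) (d k (c (d k (c l l)) (d k (d k (c l l)))))))))) (O (c l (c (c l l) (c (c (c l l) (d k (c l l))) (c (d k (c (c l l) (d k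 l))) (d k (c (d k (c l l)) (d k (d k (c l l)))))))))))) (B (A s s) (A (O (c l (c (c l l) (c (c (c l l) (d k (c l l))) (c (d k (c (c l l) (d k l))) (d k (c (d k (c l l)) (d k (d k (c l l)))))))))) (O (c l (c (c l l) (c (c (c l l) (d k (c l l))) (c (d k (c (c l l) (d k l))) (d k (c (d k (c l l)) (d k (d k (c l l)))))))))))))))) (B (A s s) (A (B (A s s) (A (B (A s s) (A (O (c l (c (c l l) (c (c (c l l) (d k (c l l))) (c (d k (c (c l l) (d k l))) (d k (c (d k (c l l)) (d k (d k (c l l)))))))))) (O (c l (c (c l l) (c (c (c l l) (d k (c l l))) (c (d k (c (c l l) (d k l))) (d k (c (d k (c l l)) (d k (d k (c l l)))))))))))) (B (A s s) (A (O (c l (c (c l l) (c (c (c l l) (d k (c l l))) (c (d k (c (c l l) (d k l))) (d k (c (d k (c l l)) (d k (d k (c l l)))))))))) (O (c l (c (c l l) (c (c (c l l) (d k (c l l))) (c (d k (c (c l l) (d k l))) (d k (c (d k (d k l)) (d k (d k (c l l)))))))))))))) (B (A s s) (A (B (A s s) (A (O (c l (c (c l l) (c (c (c l l) (d k (c l l))) (c (d k (c (c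 l l) (d k l))) (d k (c (d k (d k l)) (d k (d k (c l l)))))))))) (O (c l (c (c l l) (c (c (c l l) (d k (c l l))) (c (d k (c (c l l) (d k l))) (d k (c (d k (d k l)) (d k (d k (c l l)))))))))))) (B (A s s) (A (O (c l (c (c l l) (c (c (c l l) (d k (c l l))) (c (d k (c (c l l) (d k l))) (d k (c (d k (d k l)) (d k (d k (c l l)))))))))) (O (c l (c (c l l) (c (c (c l l) (d k (c l l))) (c (d k (c (c l l) (d k l))) (d k (c (d k (d k l)) (d k (d k (c l l))))))))))))))))))

theorem s00_r1111111111 : Sound P00 64512 512 61440 2048 :=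
  chkOut2_sound P00 KK tr00_r1111111111 64512 512 61440 2048 (by decide +kernel)

end Vale.Agent.P154.D2.K0
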