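import Vale.Agent.P154.D2.K0.Charts

set_option maxRecDepth 100000

namespace Vale.Agent.P154.D2.K0

open Cert InT OutT

/-- Certificate tree. -/
def tr01_r100 : OutT :=
(A (B (A (O (c (c (c (c l l) (c l l)) (c (c l l) (c (c l l) (c l (d l l))))) (c (c (d (c (c l l) (d (d l (c l k)) k)) (c (c (c l l) (d l k)) k)) k) k))) (B (O (c (c (c l l) (c (c l l) (c l (d l (c l (c l l)))))) (c (c (c (d (d l (c l (c l (c l k)))) (c (d (c l l) (c l k)) (d (c (d l k) k) k))) (d (d (c (d l (c l k)) k) k) k)) k) k))) (A (O (c (c (c l l) (c l (c l l))) (c (c (d (c l l) (c (c l l) k)) k) k))) (O (c (c (c l l) (c l (c l (c l l)))) (c (c (d (d l (c l k)) (c (c l l) k)) k) k)))))) (A (B (O (c (c (c (c l l) (c l l)) (c (c l l) (c l l))) (c (c (d (c l (c l k)) (c (c l l) k)) k) k))) (O (c (c (c (c l l) (c l l)) (c (c l l) (c l l))) (c (c (d (c l (c l k)) (c l k)) k) k)))) (B (A (O (c (c (c l l) (c l (c l l))) (c (c (d (c l l) (c l k)) k) k))) (O (c (c (c l l) (c l (c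 l l))) (c (c (d (c l l) (c (c l l) k)) k) k)))) (A (O (c (c (c (c l l) l) (c l (c l l))) (c (c (d l (c l k)) k) k))) (O (c (c (c (c l l) l) (c l (c l l))) (c (c (d (c l l) (c l k)) k) k))))))) (B (A s s) (A (B (A (O (c (c (c l l) (c l (c l (c l l)))) (c (c (d (c l (d l k)) (c (c l (c l k)) k)) k) k))) s) (A (O (c (c (c (c l l) l) (c l (c l l))) (c (c (d (c l l) (c l k)) k) k))) (O (c (c (c (c l l) (c l l)) (c (c l l) (c l l))) (c (c (d (c l (d l k)) (c (c l (c l k)) k)) k) k))))) (B s (A s s)))))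

theorem s01_r100 : Sound P01 32768 8192 0 16384 :=
  chkOut2_sound P01 KK tr01_r100 32768 8192 0 16384 (by decide +kernel)

end Vale.Agent.P154.D2.K0
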