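import Vale.Agent.P154.D2.K0.Charts

set_option maxRecDepth 100000

namespace Vale.Agent.P154.D2.K0

open Cert InT OutT

/-- Certificate tree. -/
def tr10_r11 : OutT :=
s

theorem s10_r11 : Sound P10 49152 8192 0 32768 :=
  chkOut2_sound P10 KK tr10_r11 49152 8192 0 32768 (by decide +kernel)

end Vale.Agent.P154.D2.K0
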